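import Vale.Agent.P032.S5.H483.IrrZ

/-!
# P032: harmless four-coloured points and pinched three-coloured points

`Harm T z A` : `T z` has four colours and every point of the unit circle about `z` with palette in
`T z` has both colours of `A` (the pair which lives on arcs of the circle).

`Harm.cd3` (CD lemma): if `v` is on the unit circle about such a `z` and has at most three colours,
among them the two colours of `T z \ A`, then all points near `v` which have these two colours are on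
the circle and have the palette of `v`.

`Pin` : the pinched points; `pin_open`, `pin_closed`.
-/

open Set Filter Topology Metric

noncomputable section

namespace Vale.Agent.P032.Six

variable {k : ℕ} {U : Fin k → Set ℂ} {T : ℂ → Set (Fin k)}

/-- the swept double wedge, all `g` near `y` off the circle -/
theorem Mx.gap_ev (h : Mx U) {z p y : ℂ} (hp : dist p z = 1) {P : Set (Fin k)}
    (hJ : ∀ᶠ q in 𝓝[sphere z 1] p, P ⊆ Pal U q) (hzy : dist z y = 1)
    {N : Set ℂ} (hN : N ∈ 𝓝 z) :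
    ∀ᶠ g in 𝓝 y, dist g z ≠ 1 → ∃ w ∈ N, dist w g = 1 ∧ ∀ i ∈ P, w ∉ closure (U i) := by
  obtain ⟨q, hq, hqz, hqy, hqy2, hJq⟩ := exists_generic (y := y) hp hJ
  have hJq : ∀ᶠ q' in 𝓝[sphere z 1] q, P ⊆ Pal U q' := hJq
  have hzq : dist z q = 1 := by rw [dist_comm]; exact hqz
  obtain ⟨θ, hθ⟩ := exists_cis (u := z - q) (by rw [← dist_eq_norm]; exact hzq)
  have hzθ : q + cis θ = z := by rw [← hθ]; ring
  obtain ⟨t1, ht1⟩ := exists_cis (u := q - z) (by rw [← dist_eq_norm]; exact hqz)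
  have hqt : z + cis t1 = q := by rw [← ht1]; ring
  obtain ⟨r, hr, hrp⟩ := Metric.mem_nhds_iff.1 hN
  have hc : ContinuousAt (fun t => q + cis t) θ :=
    (continuous_const.add continuous_cis).continuousAt
  obtain ⟨η, hη, hηr⟩ := Metric.continuousAt_iff.1 hc (min r 1) (lt_min hr one_pos)
  have hcr : cr (cis θ) (q + cis θ - y) ≠ 0 := by
    rw [hzθ, ← hθ]
    exact cr_ne hzq hzy hqy hqy2
  have hcross := crossing (c := q) (q₀ := y) (t0 := θ) (by rw [hzθ]; exact hzy) hcr hη
  filter_upwards [hcross] with g hg hgz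
  obtain ⟨t, htθ, hgt⟩ := hg
  set w := q + cis t with hw
  have hwz : dist w z < min r 1 := by
    have := hηr (x := t) (by rw [Real.dist_eq]; exact htθ)
    simp only [hzθ] at this
    exact this
  have hwg : dist g w = 1 := by rw [dist_comm]; exact hgt
  have hwne : w ≠ z := by
    intro hwz'
    rw [hwz'] at hwg
    exact hgz hwg
  have hwq : dist w q = 1 := dist_add_cis q t
  have hcr2 : cr (cis t1) (z + cis t1 - w) ≠ 0 := by
    rw [hqt, ← ht1]
    have e1 := cr_ne (z := q) (c := z) (q := w) hqz (by rw [dist_comm]; exact hwq) hwne.symm (by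
      intro h2
      have h3 : w - z = 2 * (q - z) := by linear_combination h2
      have h4 : dist w z = 2 := by
        rw [dist_eq_norm, h3, norm_mul, ← dist_eq_norm, hqz]; simp
      have h5 := lt_of_lt_of_le hwz (min_le_right _ _)
      linarith)
    exact e1
  obtain ⟨v, hv, hvs⟩ := mem_nhdsWithin_iff_exists_mem_nhds_inter.1 hJq
  have hc2 : ContinuousAt (fun t => z + cis t) t1 :=
    (continuous_const.add continuous_cis).continuousAt
  have hpre : (fun t => z + cis t) ⁻¹' v ∈ 𝓝 t1 := hc2.preimage_mem_nhds (by rw [hqt]; exact hv)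
  obtain ⟨η2, hη2, hball2⟩ := Metric.mem_nhds_iff.1 hpre
  have hsweep := crossing (c := z) (q₀ := w) (t0 := t1)
    (by rw [hqt, dist_comm]; exact hwq) hcr2 hη2
  refine ⟨w, hrp (lt_of_lt_of_le hwz (min_le_left _ _)), by rw [dist_comm]; exact hwg, ?_⟩
  intro i hi hwi
  obtain ⟨w', hw', hw'U⟩ := mem_closure_iff_nhds.1 hwi _ hsweep
  obtain ⟨t', ht', ht'1⟩ := hw'
  have hmem : z + cis t' ∈ v ∩ sphere z 1 :=
    ⟨hball2 (by rw [mem_ball, Real.dist_eq]; exact ht'), dist_add_cis z t'⟩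
  have hi' : i ∈ Pal U (z + cis t') := hvs hmem hi
  exact h.notMem' hw'U (by rw [dist_comm]; exact ht'1) hi'

/-- the points near `z` on the unit circle about an interior point of an arc of `S(z)` do not have
the colours of the arc -/
theorem Mx.wedge (h : Mx U) {z q : ℂ} (hqz : dist q z = 1) {P : Set (Fin k)}
    (hJ : ∀ᶠ q' in 𝓝[sphere z 1] q, P ⊆ Pal U q') {w : ℂ} (hwq : dist w q = 1) (hwz : w ≠ z)
    (hw1 : dist w z < 1) : ∀ i ∈ P, w ∉ closure (U i) := by
  obtain ⟨t1, ht1⟩ := exists_cis (u := q - z) (by rw [← dist_eq_norm]; exact hqz)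
  have hqt : z + cis t1 = q := by rw [← ht1]; ring
  have hcr2 : cr (cis t1) (z + cis t1 - w) ≠ 0 := by
    rw [hqt, ← ht1]
    exact cr_ne (z := q) (c := z) (q := w) hqz (by rw [dist_comm]; exact hwq) hwz.symm (by
      intro h2
      have h3 : w - z = 2 * (q - z) := by linear_combination h2
      have h4 : dist w z = 2 := by
        rw [dist_eq_norm, h3, norm_mul, ← dist_eq_norm, hqz]; simp
      linarith)
  obtain ⟨v, hv, hvs⟩ := mem_nhdsWithin_iff_exists_mem_nhds_inter.1 hJ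
  have hc2 : ContinuousAt (fun t => z + cis t) t1 :=
    (continuous_const.add continuous_cis).continuousAt
  have hpre : (fun t => z + cis t) ⁻¹' v ∈ 𝓝 t1 := hc2.preimage_mem_nhds (by rw [hqt]; exact hv)
  obtain ⟨η2, hη2, hball2⟩ := Metric.mem_nhds_iff.1 hpre
  have hsweep := crossing (c := z) (q₀ := w) (t0 := t1)
    (by rw [hqt, dist_comm]; exact hwq) hcr2 hη2
  intro i hi hwi
  obtain ⟨w', hw', hw'U⟩ := mem_closure_iff_nhds.1 hwi _ hsweep
  obtain ⟨t', ht', ht'1⟩ := hw'
  have hmem : z + cis t' ∈ v ∩ sphere z 1 :=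
    ⟨hball2 (by rw [mem_ball, Real.dist_eq]; exact ht'), dist_add_cis z t'⟩
  have hi' : i ∈ Pal U (z + cis t') := hvs hmem hi
  exact h.notMem' hw'U (by rw [dist_comm]; exact ht'1) hi'

/-- a harmless four-coloured point with arc pair `A` -/
structure Harm (T : ℂ → Set (Fin k)) (z : ℂ) (A : Set (Fin k)) : Prop where
  card : (T z).ncard = 4
  cardA : A.ncard = 2
  sub : A ⊆ T z
  h1 : ∀ y, dist y z = 1 → T y ⊆ T z → A ⊆ T y
  arc : ∃ p, dist p z = 1 ∧ ∀ᶠ q in 𝓝[sphere z 1] p, T q = A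

namespace Harm

variable {z : ℂ} {A : Set (Fin k)}

theorem unique (hz : Harm T z A) {A' : Set (Fin k)} (hz' : Harm T z A') : A' = A := by
  obtain ⟨p, hp, hJ⟩ := hz.arc
  have hpA : T p = A := hJ.self_of_nhdsWithin hp
  have h1 : A' ⊆ A := by
    have := hz'.h1 p hp (hpA.le.trans hz.sub)
    rwa [hpA] at this
  exact Set.eq_of_subset_of_ncard_le h1 (by rw [hz.cardA, hz'.cardA]) (Set.toFinite _)

theorem cardC (hz : Harm T z A) : (T z \ A).ncard = 2 := by
  have := Set.ncard_sdiff hz.sub (Set.toFinite _)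
  rw [hz.card, hz.cardA] at this
  exact this

/-- `T` and `A` are locally constant on the set of harmless points -/
theorem nhd (h : Irr U T) (hz : Harm T z A) :
    ∀ᶠ w in 𝓝 z, ∀ A', Harm T w A' → T w = T z ∧ A' = A := by
  obtain ⟨p, hp, hJ⟩ := hz.arc
  have hpA : T p = A := hJ.self_of_nhdsWithin hp
  have h1 : Tendsto (fun x => p + (x - z)) (𝓝 z) (𝓝 p) := by
    have : Continuous fun x : ℂ => p + (x - z) := by fun_prop
    have h2 := this.tendsto z
    simpa using h2
  filter_upwards [h.nhd z, h1.eventually (h.nhd p)] with w hw hpw A' hA'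
  have hT : T w = T z :=
    Set.eq_of_subset_of_ncard_le hw (by rw [hz.card, hA'.card]) (Set.toFinite _)
  refine ⟨hT, ?_⟩
  have hd : dist (p + (w - z)) w = 1 := by
    rw [← hp, dist_eq_norm, dist_eq_norm]; congr 1; ring
  have hpw : T (p + (w - z)) ⊆ A := hpA ▸ hpw
  have h2 : A' ⊆ T (p + (w - z)) := hA'.h1 _ hd (hpw.trans (hT ▸ hz.sub))
  exact Set.eq_of_subset_of_ncard_le (h2.trans hpw) (by rw [hz.cardA, hA'.cardA]) (Set.toFinite _)

/-- the unique arc palette -/
theorem of_M (h : Irr U T) (h4 : (T z).ncard = 4) {p : ℂ} (hp : dist p z = 1)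
    (hJ : ∀ᶠ q in 𝓝[sphere z 1] p, T q = A) (hA : A ⊆ T z)
    (huniq : ∀ q P, dist q z = 1 → (∀ᶠ q' in 𝓝[sphere z 1] q, T q' = P) → P ⊆ T z → P = A) :
    Harm T z A := by
  have hpA : T p = A := hJ.self_of_nhdsWithin hp
  have h1 : ∀ y, dist y z = 1 → T y ⊆ T z → A ⊆ T y := by
    intro y hy hyz
    obtain ⟨q, -, hq, hq2, hq3, -, -⟩ := h.arc_of_sub hy hyz univ_mem
    rw [← huniq q (T q) hq hq2 (hq3.trans hyz)]
    exact hq3
  obtain ⟨q, -, hq, hq2, hq3, hq4, hq5⟩ := h.arc_of_sub hp (hpA.le.trans hA) univ_mem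
  have hqA : T q = A := huniq q (T q) hq hq2 (hq3.trans (hpA.le.trans hA))
  rw [hqA] at hq4 hq5
  have := Set.ncard_sdiff hA (Set.toFinite _)
  refine ⟨h4, by omega, hA, h1, p, hp, hJ⟩

/-- points on the unit circle about an interior point of an `A`-arc, near `z`: only the two other
colours -/
theorem wedge (h : Irr U T) (_hz : Harm T z A) {q : ℂ} (hq : dist q z = 1)
    (hJ : ∀ᶠ q' in 𝓝[sphere z 1] q, T q' = A) :
    ∀ᶠ w in 𝓝 z, dist w q = 1 → w ≠ z → T w ⊆ T z \ A := by
  filter_upwards [h.nhd z, ball_mem_nhds z one_pos] with w hw hwb hwq hwz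
  intro i hi
  refine ⟨hw hi, fun hiA => ?_⟩
  exact h.mx.wedge hq (P := A) (hJ.mono fun q' hq' => by rw [← hq']; exact h.sub q') hwq hwz
    (mem_ball.1 hwb) i hiA (h.sub w hi)

/-- **CD lemma**: near a point `v` of the circle about `z`, a point which has the two colours of
`T z \ A` lies on the circle or has at least four colours. -/
theorem cd (h : Irr U T) (hz : Harm T z A) {v : ℂ} (hv : dist v z = 1) :
    ∀ᶠ x in 𝓝 v, T z \ A ⊆ T x → dist x z = 1 ∨ 4 ≤ (T x).ncard := by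
  obtain ⟨p, hp, hJ⟩ := hz.arc
  have hJ' : ∀ᶠ q in 𝓝[sphere z 1] p, A ⊆ Pal U q :=
    hJ.mono fun q' hq' => by rw [← hq']; exact h.sub q'
  filter_upwards [h.mx.gap_ev hp hJ' (y := v) (by rw [dist_comm]; exact hv) (h.nhd z)] with x hx hC
  by_contra hcon
  push Not at hcon
  obtain ⟨w, hw, hwx, hwA⟩ := hx hcon.1
  refine h.not_sub (x := x) (y := w) hwx (by omega) fun i hi => hC ⟨hw hi, fun hiA => ?_⟩
  exact hwA i hiA (h.sub w hi)

/-- the third colour of a pinched point -/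
theorem third (hz : Harm T z A) {v : ℂ} (hv : dist v z = 1) (h3 : (T v).ncard ≤ 3)
    (hC : T z \ A ⊆ T v) : ∃ e, e ∉ T z ∧ T v = insert e (T z \ A) := by
  have h1 : ¬ T v ⊆ T z := by
    intro hsub
    have h2 := hz.h1 v hv hsub
    have h5 : T z ⊆ T v := fun i hi => by
      by_cases hiA : i ∈ A
      · exact h2 hiA
      · exact hC ⟨hi, hiA⟩
    have := Set.ncard_le_ncard h5 (Set.toFinite _)
    rw [hz.card] at this
    omega
  obtain ⟨e, he, hez⟩ := Set.not_subset.1 h1
  refine ⟨e, hez, (Set.eq_of_subset_of_ncard_le (insert_subset he hC) ?_ (Set.toFinite _)).symm⟩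
  rw [Set.ncard_insert_of_notMem (fun hmem => hez hmem.1) (Set.toFinite _), hz.cardC]
  exact h3

/-- **CD lemma** at a point with at most three colours -/
theorem cd3 (h : Irr U T) (hz : Harm T z A) {v : ℂ} (hv : dist v z = 1) (h3 : (T v).ncard ≤ 3)
    (hC : T z \ A ⊆ T v) : ∀ᶠ x in 𝓝 v, T z \ A ⊆ T x → dist x z = 1 ∧ T x = T v := by
  obtain ⟨e, hez, hTv⟩ := hz.third hv h3 hC
  filter_upwards [hz.cd h hv, h.nhd v] with x hx hxv hCx
  have h3x : (T x).ncard ≤ 3 := (Set.ncard_le_ncard hxv (Set.toFinite _)).trans h3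
  have hxz : dist x z = 1 := (hx hCx).resolve_right (by omega)
  refine ⟨hxz, ?_⟩
  obtain ⟨e', hez', hTx⟩ := hz.third hxz h3x hCx
  have h4 : e' ∈ T v := hxv (by rw [hTx]; exact mem_insert _ _)
  rw [hTv] at h4
  rcases h4 with rfl | h4
  · rw [hTx, hTv]
  · exact absurd h4.1 hez'

/-- near a pinched point the circle about `z` lies in `F_e` -/
theorem third_arc (h : Irr U T) (hz : Harm T z A) {v : ℂ} {e : Fin k}
    (hTv : T v = insert e (T z \ A)) :
    ∀ᶠ x in 𝓝[sphere z 1] v, e ∈ T x := by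
  filter_upwards [mem_nhdsWithin_of_mem_nhds (h.nhd v), self_mem_nhdsWithin] with x hx hxz
  by_contra hex
  have h1 : T x ⊆ T z := fun i hi => by
    have := hx hi
    rw [hTv] at this
    rcases this with rfl | h2
    · exact absurd hi hex
    · exact h2.1
  have h2 := hz.h1 x hxz h1
  obtain ⟨a, ha⟩ : A.Nonempty := by
    rw [← Set.ncard_pos (Set.toFinite _), hz.cardA]; norm_num
  have h4 := hx (h2 ha)
  rw [hTv] at h4
  rcases h4 with rfl | h4
  · exact hex (h2 ha)
  · exact h4.2 ha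

end Harm

/-- the points with at most three colours, `i` and `j` among them, which are on the unit circle
about a harmless point of `D` whose complementary pair is `{i, j}` -/
def Pin (T : ℂ → Set (Fin k)) (D : Set ℂ) (i j : Fin k) : Set ℂ :=
  {v | i ∈ T v ∧ j ∈ T v ∧ (T v).ncard ≤ 3 ∧ ∃ z ∈ D, dist v z = 1 ∧
    ∃ A, Harm T z A ∧ T z \ A = {i, j}}

/-- `Pin` is relatively open in the set of all points with the colours `i` and `j`, and the palette
is constant -/
theorem pin_open (h : Irr U T) {D : Set ℂ} {i j : Fin k} {v : ℂ} (hv : v ∈ Pin T D i j) :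
    ∀ᶠ x in 𝓝 v, i ∈ T x → j ∈ T x → x ∈ Pin T D i j ∧ T x = T v := by
  obtain ⟨hi, hj, h3, z, hzD, hvz, A, hz, hC⟩ := hv
  filter_upwards [hz.cd3 h hvz h3 (by rw [hC]; exact insert_subset hi (singleton_subset_iff.2 hj))]
    with x hx hix hjx
  obtain ⟨h4, h5⟩ := hx (by rw [hC]; exact insert_subset hix (singleton_subset_iff.2 hjx))
  exact ⟨⟨hix, hjx, by rw [h5]; exact h3, z, hzD, h4, A, hz, hC⟩, h5⟩

/-- `Pin` is closed -/
theorem pin_closed (h : Irr U T) {D : Set ℂ} (hD : IsCompact D)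
    (hZ : ∀ z ∈ D, 4 ≤ (T z).ncard → ∃ A, Harm T z A) {v : ℂ}
    (hv3 : ∀ z ∈ D, 4 ≤ (T z).ncard → dist v z = 1 → (T v).ncard ≤ 3) {i j : Fin k}
    (hf : ∃ᶠ x in 𝓝 v, x ∈ Pin T D i j) : v ∈ Pin T D i j := by
  obtain ⟨x, hx, hxP⟩ := exists_seq_forall_of_frequently hf
  choose hi hj h3 z hzD hxz A hz hC using hxP
  obtain ⟨z0, hz0D, φ, hφ, hlim⟩ := hD.tendsto_subseq hzD
  have hxlim : Tendsto (x ∘ φ) atTop (𝓝 v) := hx.comp hφ.tendsto_atTop
  have hd : dist v z0 = 1 := by
    have h1 : Tendsto (fun n => dist ((x ∘ φ) n) ((z ∘ φ) n)) atTop (𝓝 (dist v z0)) :=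
      hxlim.dist hlim
    have h2 : (fun n => dist ((x ∘ φ) n) ((z ∘ φ) n)) = fun _ => 1 := by
      funext n; exact hxz (φ n)
    rw [h2] at h1
    exact tendsto_nhds_unique h1 tendsto_const_nhds
  have hcl : ∀ m : ℕ, IsClosed {w | m ≤ (T w).ncard} := by
    intro m
    rw [← isOpen_compl_iff, isOpen_iff_mem_nhds]
    intro w hw
    have hw : ¬ m ≤ (T w).ncard := hw
    filter_upwards [h.nhd w] with y hy
    have := Set.ncard_le_ncard hy (Set.toFinite _)
    show ¬ m ≤ (T y).ncard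
    omega
  have h4 : 4 ≤ (T z0).ncard := by
    refine (hcl 4).mem_of_tendsto hlim (Eventually.of_forall fun n => ?_)
    show 4 ≤ (T (z (φ n))).ncard
    rw [(hz (φ n)).card]
  obtain ⟨A0, hA0⟩ := hZ z0 hz0D h4
  obtain ⟨n, hn⟩ := (hlim.eventually (hA0.nhd h)).exists
  obtain ⟨h5, h6⟩ := hn _ (hz (φ n))
  have hiv : i ∈ T v := (h.closed i).mem_of_tendsto hx (Eventually.of_forall hi)
  have hjv : j ∈ T v := (h.closed j).mem_of_tendsto hx (Eventually.of_forall hj)
  refine ⟨hiv, hjv, hv3 z0 hz0D h4 hd, z0, hz0D, hd, A0, hA0, ?_⟩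
  rw [← hC (φ n), ← h6, ← h5]
  rfl

end Vale.Agent.P032.Six
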