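import Vale.Agent.P032.S5.H585.Exc
import Vale.Agent.P032.S5.H830.StateX

/-!
# P032: the geometric inputs `GeoX` in the frame `Reg`
-/

open Set Filter Topology Metric

noncomputable section

namespace Vale.Agent.P032.Carr

open Vale.Agent.P032.S5 Vale.Agent.P032.Six

variable {U : Fin 6 → Set ℂ} {T : ℂ → Set (Fin 6)} {Z : Set ℂ} {f : ℂ → Set (Fin 6)}
  {c : ℂ} {R : ℝ}

/-- `GeoX` -/
theorem Reg.geoX (G : Reg U T f Z c R) {B D : Set ℂ} (hB : ∀ x ∈ B, dist x c ≤ R)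
    (hBD : ∀ x ∈ B, closedBall x 1 ⊆ D)
    (hcomp : ∀ u ∈ D, ∀ u' ∈ D, ∀ s : Set (Fin 6), S5.Face T u s → S5.Face T u' sᶜ →
      2 ≤ dist u u') : GeoX T (Ex T Z f) B D where
  sub := hBD
  exs := fun i j => Ex_symm i j
  exc := fun x hx i j _ _ _ hE => G.exc (hB x hx) hE
  exo := fun x _ i j _ _ _ hE => (G.exo hE).mono fun y hy _ _ => hy
  pal := fun x hx => by
    rcases G.palE (hB x hx) with h | ⟨h1, h2⟩ | ⟨i, j, k, h1, h2, h3, h4, h5, h6, h7⟩ |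
      ⟨a, b, c', d, h1, h2, h3, h4, h5, h6, h7, h8, ⟨h9, h10⟩, h11, h12⟩
    · exact Or.inl ⟨h, fun i _ j _ _ hE => by
        have := G.ex_three (hB x hx) hE
        omega⟩
    · exact Or.inr (Or.inl ⟨h1, fun i hi j hj _ => h2 i hi j hj⟩)
    · exact Or.inr (Or.inr (Or.inl ⟨i, j, k, h1, h2, h3, h4, h5, h6, h7⟩))
    · refine Or.inr (Or.inr (Or.inr ⟨a, b, c', d, ?_, h7, h8, ⟨h9, fun i hi j hj _ =>
        h10 i hi j hj⟩, h11, fun i hi j hj _ => h12 i hi j hj⟩))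
      simp [h1, h2, h3, h4, h5, h6]
  comp := hcomp

end Vale.Agent.P032.Carr
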