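import Vale.Agent.P032.S5.H585.Exc
import Vale.Agent.P032.S5.H830.StateX

/-!
# P032: pinched points on the unit circle about a base

`Reg.R2` : (R2) of helper830's `ring_of`.
-/

open Set Filter Topology Metric

noncomputable section

namespace Vale.Agent.P032.Carr

open Vale.Agent.P032.S5 Vale.Agent.P032.Six

variable {U : Fin 6 → Set ℂ} {T : ℂ → Set (Fin 6)} {Z : Set ℂ} {f : ℂ → Set (Fin 6)}
  {c : ℂ} {R : ℝ}

/-- points of the unit circle near `v + cis θ` have argument near `θ` -/
theorem near_arc {v y : ℂ} {θ : ℝ} (hθ : y = v + cis θ) {η : ℝ} (hη : 0 < η) :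
    ∀ᶠ y' in 𝓝 y, dist y' v = 1 → ∃ s, |s - θ| < η ∧ y' = v + cis s := by
  have hne : y - v ≠ 0 := by
    rw [hθ, add_sub_cancel_left]
    intro h
    have := norm_cis θ
    rw [h, norm_zero] at this
    exact zero_ne_one this
  have hc : ContinuousAt (fun y' => ((y' - v) / (y - v)).arg) y := by
    have e1 : ContinuousAt (fun y' => (y' - v) / (y - v)) y := by fun_prop
    have e2 : ContinuousAt Complex.arg ((y - v) / (y - v)) := by
      refine Complex.continuousAt_arg ?_
      rw [div_self hne]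
      exact Complex.one_mem_slitPlane
    exact ContinuousAt.comp (f := fun y' => (y' - v) / (y - v)) (g := Complex.arg) e2 e1
  have h0 : |((y - v) / (y - v)).arg| < η := by
    rw [div_self hne, Complex.arg_one, abs_zero]; exact hη
  have h1 : ∀ᶠ y' in 𝓝 y, |((y' - v) / (y - v)).arg| < η :=
    (hc.abs).eventually (Iio_mem_nhds h0)
  filter_upwards [h1] with y' hy' hd
  refine ⟨θ + ((y' - v) / (y - v)).arg, by rw [add_sub_cancel_left]; exact hy', ?_⟩
  have hn : ‖y - v‖ = 1 := by rw [hθ, add_sub_cancel_left, norm_cis]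
  have hn' : ‖y' - v‖ = 1 := by rw [← dist_eq_norm]; exact hd
  have hr : ‖(y' - v) / (y - v)‖ = 1 := by rw [norm_div, hn, hn', div_one]
  have h2 : cis ((y' - v) / (y - v)).arg = (y' - v) / (y - v) := by
    have := Complex.norm_mul_exp_arg_mul_I ((y' - v) / (y - v))
    rw [hr] at this
    unfold cis
    simpa using this
  have h3 : cis (θ + ((y' - v) / (y - v)).arg) = cis θ * cis ((y' - v) / (y - v)).arg := by
    unfold cis
    rw [← Complex.exp_add]
    congr 1
    push_cast
    ring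
  rw [h3, h2]
  have h4 : cis θ = y - v := by rw [hθ]; ring
  rw [h4, mul_div_cancel₀ _ hne]
  ring

namespace Reg

/-- **(R2)** -/
theorem R2 (G : Reg U T f Z c R) {v : ℂ} {S : Set (Fin 6)} (hv : dist v c ≤ R - 1)
    (hS : S5.Face T v S) (hSv : ∀ z ∈ Z, dist z v ≠ 1) {y : ℂ} (hy : dist y v = 1)
    (hcomp : ¬ S5.Face T y Sᶜ) {i j : Fin 6} (hi : i ∉ S) (hj : j ∉ S)
    (hE : y ∈ Ex T Z f i j) :
    ∃ t ∈ T y, t ∉ S ∧ ∀ᶠ y' in 𝓝 y, dist y' v = 1 → y' ≠ y →
      t ∈ T y' ∧ ∀ m ∈ T y', m ∈ S ∨ m = t := by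
  have hij := G.ex_ne hE
  have hyZ : y ∉ Z := fun h => hSv y h hy
  rcases hE with ⟨h, -⟩ | ⟨-, hi', hj', z', hz', hzy, hC⟩
  · exact absurd h hyZ
  have hyz : dist y z' = 1 := by rw [dist_comm]; exact hzy
  have hyc : dist y c ≤ R := by
    have := dist_triangle y v c
    linarith
  have h3 := G.le3 hyc hyZ
  have hCy : T z' \ f z' ⊆ T y := by
    rw [hC]; exact insert_subset hi' (singleton_subset_iff.2 hj')
  obtain ⟨k, hkz, hTy⟩ := (G.harm hz').third hyz h3 hCy
  rw [hC] at hTy
  have hki : k ≠ i := by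
    rintro rfl
    have : k ∈ T z' \ f z' := by rw [hC]; simp
    exact hkz this.1
  have hkj : k ≠ j := by
    rintro rfl
    have : k ∈ T z' \ f z' := by rw [hC]; simp
    exact hkz this.1
  -- the third colour is in `S`
  have hkS : k ∈ S := by
    by_contra hkS
    apply hcomp
    have h1 : (Sᶜ : Set (Fin 6)).ncard = 3 := by
      have := Set.ncard_add_ncard_compl S
      rw [Nat.card_eq_fintype_card, Fintype.card_fin, hS.1] at this
      omega
    have h2 : T y ⊆ Sᶜ := by
      rw [hTy]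
      intro m hm
      simp only [mem_insert_iff, mem_singleton_iff] at hm
      rcases hm with rfl | rfl | rfl
      · exact hkS
      · exact hi
      · exact hj
    have h4 : (T y).ncard = 3 := by
      rw [hTy, Set.ncard_eq_three.2 ⟨k, i, j, hki, hkj, hij, rfl⟩]
    have h5 : T y = Sᶜ := Set.eq_of_subset_of_ncard_le h2 (by rw [h1, h4]) (Set.toFinite _)
    rw [← h5]
    exact ⟨h4, Subset.rfl, fun w hw => G.irr.not_sub hw h3⟩
  -- the centre is not `v`
  have hne : v ≠ z' := by
    rintro rfl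
    have h1 : S ⊆ f v := by
      intro m hm
      by_contra hmf
      have : m ∈ T v \ f v := ⟨hS.2.1 hm, hmf⟩
      rw [hC] at this
      rcases this with rfl | h
      · exact hi hm
      · have h : m = j := h
        exact hj (h ▸ hm)
    have h2 := Set.ncard_le_ncard h1 (Set.toFinite _)
    rw [hS.1, (G.harm hz').cardA] at h2
    omega
  have hkv : k ∈ T v := hS.2.1 hkS
  -- the neighbourhood of `y`
  have hcd := (G.harm hz').cd3 G.irr hyz h3 hCy
  rw [hC] at hcd
  obtain ⟨r, hr, hball⟩ := Metric.eventually_nhds_iff_ball.1 (hcd.and (G.irr.nhd y))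
  obtain ⟨θ, hθ⟩ := exists_cis (u := y - v) (by rw [← dist_eq_norm]; exact hy)
  have hyθ : y = v + cis θ := by rw [← hθ]; ring
  obtain ⟨η, hη, hηr⟩ := Metric.continuousAt_iff.1 (continuous_cis.continuousAt (x := θ)) (r / 2)
    (by positivity)
  have hin : ∀ w s, dist w v < r / 2 → |s - θ| < η → w + cis s ∈ ball y r := by
    intro w s hw hs
    have h1 := hηr (x := s) (by rw [Real.dist_eq]; exact hs)
    have h2 : dist (w + cis s) y ≤ dist w v + dist (cis s) (cis θ) := by
      rw [hyθ]; exact dist_add_add_le _ _ _ _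
    rw [mem_ball]
    linarith
  -- one colour on the moved arcs
  have key : ∀ w, T w = {k} → dist w v < r / 2 →
      (∀ s ∈ Ioo (θ - η) (θ + η), i ∈ T (w + cis s)) ∨
      (∀ s ∈ Ioo (θ - η) (θ + η), j ∈ T (w + cis s)) := by
    intro w hw hwv
    have hwU : w ∈ U k := G.irr.mem_of_single hw.subset
    have hk : ∀ s, k ∉ T (w + cis s) := fun s hks =>
      G.irr.mx.notMem' hwU (by rw [dist_comm]; exact dist_add_cis w s) (G.irr.sub _ hks)
    by_contra hcon
    push Not at hcon
    obtain ⟨⟨s1, hs1, hs1'⟩, ⟨s2, hs2, hs2'⟩⟩ := hcon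
    have ho1 : IsOpen {s : ℝ | i ∉ T (w + cis s)} :=
      ((G.irr.closed i).preimage (continuous_const.add continuous_cis)).isOpen_compl
    have ho2 : IsOpen {s : ℝ | j ∉ T (w + cis s)} :=
      ((G.irr.closed j).preimage (continuous_const.add continuous_cis)).isOpen_compl
    have habs : ∀ s ∈ Ioo (θ - η) (θ + η), |s - θ| < η := by
      intro s hs
      rw [abs_lt]
      constructor <;> linarith [hs.1, hs.2]
    obtain ⟨s, hs, hsi, hsj⟩ := isPreconnected_Ioo (a := θ - η) (b := θ + η)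
      {s : ℝ | i ∉ T (w + cis s)} {s : ℝ | j ∉ T (w + cis s)} ho1 ho2 (by
        intro s hs
        by_contra hcon
        simp only [mem_union, mem_ofPred_eq, not_or, not_not] at hcon
        have h1 := hball _ (hin w s hwv (habs s hs))
        have h2 := (h1.1 (insert_subset hcon.1 (singleton_subset_iff.2 hcon.2))).2
        exact hk s (by rw [h2, hTy]; exact mem_insert _ _))
      ⟨s1, hs1, hs1'⟩ ⟨s2, hs2, hs2'⟩
    obtain ⟨m, hm⟩ := G.irr.ne (w + cis s)
    have h1 := (hball _ (hin w s hwv (habs s hs))).2 hm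
    rw [hTy] at h1
    simp only [mem_insert_iff, mem_singleton_iff] at h1
    rcases h1 with rfl | rfl | rfl
    · exact hk s hm
    · exact hsi hm
    · exact hsj hm
  have hfr : ∃ᶠ w in 𝓝 v, (∀ s ∈ Ioo (θ - η) (θ + η), i ∈ T (w + cis s)) ∨
      (∀ s ∈ Ioo (θ - η) (θ + η), j ∈ T (w + cis s)) :=
    ((G.irr.pure v k hkv).and_eventually (ball_mem_nhds v (by positivity : (0 : ℝ) < r / 2))).mono
      fun w hw => key w hw.1 (mem_ball.1 hw.2)
  -- the conclusion for one colour
  have fin : ∀ t t', T y = {k, t, t'} → t ∉ S →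
      (∃ᶠ w in 𝓝 v, ∀ s ∈ Ioo (θ - η) (θ + η), t ∈ T (w + cis s)) →
      (∀ x, t ∈ T x → t' ∈ T x → ({i, j} : Set (Fin 6)) ⊆ T x) →
      ∃ t ∈ T y, t ∉ S ∧ ∀ᶠ y' in 𝓝 y, dist y' v = 1 → y' ≠ y →
        t ∈ T y' ∧ ∀ m ∈ T y', m ∈ S ∨ m = t := by
    intro t t' hT htS hft hsub
    have ht : ∀ s ∈ Ioo (θ - η) (θ + η), t ∈ T (v + cis s) := by
      intro s hs
      by_contra hcon
      have ho : IsOpen {w : ℂ | t ∉ T (w + cis s)} :=
        ((G.irr.closed t).preimage (continuous_id.add continuous_const)).isOpen_compl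
      obtain ⟨w, h1, h2⟩ := (hft.and_eventually (ho.mem_nhds hcon)).exists
      exact h2 (h1 s hs)
    refine ⟨t, by rw [hT]; simp, htS, ?_⟩
    filter_upwards [near_arc hyθ hη, ball_mem_nhds y hr, two_circles hne hy hyz] with y' h1 h2 h4
      hd hney
    obtain ⟨s, hs, rfl⟩ := h1 hd
    have hty : t ∈ T (v + cis s) := ht s (by
      rw [abs_lt] at hs
      constructor <;> linarith [hs.1, hs.2])
    refine ⟨hty, fun m hm => ?_⟩
    have h5 := (hball _ h2).2 hm
    rw [hT] at h5
    simp only [mem_insert_iff, mem_singleton_iff] at h5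
    rcases h5 with rfl | rfl | rfl
    · exact Or.inl hkS
    · exact Or.inr rfl
    · exact absurd (h4 hd ((hball _ h2).1 (hsub _ hty hm)).1) hney
  rcases frequently_or_distrib.1 hfr with h | h
  · exact fin i j hTy hi h fun x h1 h2 => insert_subset h1 (singleton_subset_iff.2 h2)
  · refine fin j i ?_ hj h fun x h1 h2 => insert_subset h2 (singleton_subset_iff.2 h1)
    rw [hTy]
    ext m
    simp only [mem_insert_iff, mem_singleton_iff]
    tauto

end Reg

end Vale.Agent.P032.Carr
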