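import Vale.Agent.P032.S5.H585.RingW
import Vale.Agent.P032.Carr.LamU
import Vale.Agent.P032.Carr.Ring

/-!
# P032: the ring of `cech_endH` at a base, unit pairs of harmless points allowed
-/

open Set Filter Topology Metric

noncomputable section

namespace Vale.Agent.P032.Carr

open Vale.Agent.P032.S5 Vale.Agent.P032.Six

variable {U : Fin 6 → Set ℂ} {T : ℂ → Set (Fin 6)} {Z : Set ℂ} {f : ℂ → Set (Fin 6)}
  {c : ℂ} {R δ₀ : ℝ}

/-- the frame from helper223's `Up` -/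
theorem regS_of_up (h : Irr U T) (hZ : Zs T Z c R) (hl : Hml T f (ball c (R + 1)))
    (hup : Up T Z f) : RegS U T f Z c R :=
  ⟨h, hZ, hl, fun z hz x hx hd hs => (hup z hz x hx (by rw [dist_comm]; exact hd) hs).symm⟩

theorem RegS.up (G : RegS U T f Z c R) : Up T Z f := fun z hz x hx hd hs =>
  (G.sep z hz x hx (by rw [dist_comm]; exact hd) hs).symm

/-- **the ring of `cech_endH`** at a base whose circle may meet `Z` -/
theorem RegS.ringU (G : RegS U T f Z c R) (H : Hm T Z f δ₀) {v : ℂ} {S : Set (Fin 6)}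
    (hv : dist v c ≤ R - 1) (hS : Base T (Ex T Z f) v S)
    (hcomp : ∀ y, dist y v = 1 → ¬ S5.Face T y Sᶜ) {d e : Fin 6} (hde : d ≠ e)
    (hring : ∀ᶠ δ in 𝓝[>] (0 : ℝ), ∀ᶠ j : ℕ in atTop, ∀ h : ℕ → Fin 6, h (6 * 2 ^ j) = h 0 →
      (∀ k ≤ 6 * 2 ^ j, h k ∈ apx T Z δ (hp T f S) (S5.pt v j (2 ^ j) k) ∧ h k ∉ S) →
        ∑ k ∈ Finset.range (6 * 2 ^ j), eps (h k) (h (k + 1)) {d, e} = 1) :
    ∀ δ > 0, ∀ N : ℕ, ∃ n ≥ N, ∃ (l : ℕ → Fin 6) (P : ℕ → ℂ), (∀ k, l (k + n) = l k) ∧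
      (∀ k, P (k + n) = P k) ∧
      (∀ k : ℕ, P k ∈ closedBall v 1 ∧ dist (P k) (v + cis (2 * Real.pi * k / n)) < δ ∧
        l k ∈ T (P k)) ∧
      (∀ k, l k ∉ S) ∧
      (∀ k, l k ≠ l (k + 1) → ∃ w ∈ closedBall v 1, dist w (P k) < δ ∧
        l k ∈ T w ∧ l (k + 1) ∈ T w ∧ w ∉ Ex T Z f (l k) (l (k + 1))) ∧
      ∑ k ∈ Finset.range n, (if ({l k, l (k + 1)} : Finset (Fin 6)) = {d, e} then 1 else 0) =
        (1 : ZMod 2) := by
  refine ring_ofH H G.zs.compact Subset.rfl hS.1 hde (fun z hz hzv => ?_) ?_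
    fun y hy hyZ i j _ hi hj _ _ hE => ?_
  · exact apex_offU G.zs G.hml G.up hS.1.2.1 hS.2 hz hzv
  · filter_upwards [hring] with δ hδ N
    obtain ⟨j, hj, hjN⟩ := (hδ.and (eventually_ge_atTop N)).exists
    refine ⟨6 * 2 ^ j, ?_, fun l hl hlab => hj l hl fun k hk => ?_⟩
    · have h1 : j < 2 ^ j := Nat.lt_two_pow_self
      omega
    · rw [pt_cis]
      exact hlab k hk
  · obtain ⟨t, h1, h2, h3⟩ := G.R2 hv hS.1 hy hyZ (hcomp y hy) hi hj hE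
    exact ⟨t, h1, h2, h3.mono fun y' hy' ha hb => (hy' ha hb).2⟩

end Vale.Agent.P032.Carr
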