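import Vale.Agent.P032.Carr.LamT
import Vale.Agent.P032.S5.H585.Pinch

/-!
# P032: the exceptional sets

For helper223's `Ex T Z f` (`Carr/LamT.lean`), in the frame `Irr U T`, `Zs T Z c R`,
`Hml T f (ball c (R + 1))`, no two points of `Z` at distance one, and `x` in the disc of radius
`R - 1` about `c`:

`exc` : if `x` is exceptional for `i, j` then all points near `x` which have the colours `i, j` have
the palette of `x` and are exceptional;

`exo` : if `x` is not exceptional for `i, j` then no point near `x` is;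

`palE` : the list of palettes.
-/

open Set Filter Topology Metric

noncomputable section

namespace Vale.Agent.P032.Carr

open Vale.Agent.P032.S5 Vale.Agent.P032.Six

variable {U : Fin 6 → Set ℂ} {T : ℂ → Set (Fin 6)} {Z : Set ℂ} {f : ℂ → Set (Fin 6)}
  {c : ℂ} {R : ℝ}

/-- the circle of a point in both circles is isolated -/
theorem two_circles {z z' x : ℂ} (hne : z ≠ z') (hx : dist x z = 1) (hx' : dist x z' = 1) :
    ∀ᶠ w in 𝓝 x, dist w z = 1 → dist w z' = 1 → w = x := by
  by_cases hex : ∃ w0, w0 ≠ x ∧ dist w0 z = 1 ∧ dist w0 z' = 1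
  · obtain ⟨w0, hw0, h1, h2⟩ := hex
    filter_upwards [isOpen_ne.mem_nhds hw0.symm] with w hw h3 h4
    have h5 := EuclideanGeometry.eq_of_dist_eq_of_dist_eq_of_finrank_eq_two (V := ℂ)
      Complex.finrank_real_complex hne hw0 h1 hx h3 h2 hx' h4
    rcases h5 with h5 | h5
    · exact absurd h5 hw
    · exact h5
  · push Not at hex
    refine Eventually.of_forall fun w h1 h2 => ?_
    by_contra hw
    exact hex w hw h1 h2

/-- a punctured disc is connected -/
theorem punctured (x : ℂ) (r : ℝ) : IsPreconnected (ball x r \ {x}) := by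
  have h1 : ball x r \ {x} = (fun p : ℝ × ℝ => x + p.1 * cis p.2) '' (Ioo 0 r ×ˢ univ) := by
    ext w
    constructor
    · rintro ⟨hw, hwx⟩
      have hwx : w - x ≠ 0 := sub_ne_zero.2 hwx
      have hn : 0 < ‖w - x‖ := norm_pos_iff.2 hwx
      refine ⟨(‖w - x‖, (w - x).arg), ⟨⟨hn, ?_⟩, mem_univ _⟩, ?_⟩
      · have := mem_ball.1 hw
        rwa [dist_eq_norm] at this
      · have h2 := Complex.norm_mul_exp_arg_mul_I (w - x)
        show x + (‖w - x‖ : ℂ) * cis (w - x).arg = w
        unfold cis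
        rw [h2]; ring
    · rintro ⟨⟨ρ, t⟩, ⟨⟨h0, hr⟩, -⟩, rfl⟩
      have hn : ‖(ρ : ℂ) * cis t‖ = ρ := by
        rw [norm_mul, norm_cis, mul_one, Complex.norm_real, Real.norm_of_nonneg h0.le]
      refine ⟨?_, ?_⟩
      · rw [mem_ball, dist_eq_norm, add_sub_cancel_left, hn]; exact hr
      · intro h
        have h2 : (ρ : ℂ) * cis t = 0 := by
          have : x + (ρ : ℂ) * cis t = x := h
          linear_combination this
        rw [h2, norm_zero] at hn
        exact h0.ne hn
  rw [h1]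
  refine (isPreconnected_Ioo.prod isPreconnected_univ).image _ ?_
  refine Continuous.continuousOn ?_
  exact continuous_const.add ((Complex.continuous_ofReal.comp continuous_fst).mul
    (continuous_cis.comp continuous_snd))

/-- a colour which near `x` occurs only alone (outside `x`) is the only colour of `x` -/
theorem isolated {k : ℕ} {U : Fin k → Set ℂ} {T : ℂ → Set (Fin k)} (h : Irr U T) {x : ℂ}
    {i : Fin k} (hi : i ∈ T x) (hiso : ∀ᶠ w in 𝓝 x, w ≠ x → i ∈ T w → T w ⊆ {i}) :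
    T x ⊆ {i} := by
  by_contra hcon
  obtain ⟨j, hj, hji⟩ := Set.not_subset.1 hcon
  have hji : j ≠ i := hji
  obtain ⟨r, hr, hball⟩ := Metric.eventually_nhds_iff_ball.1 hiso
  have hop : IsOpen {w | T w ⊆ {i}} := by
    rw [isOpen_iff_mem_nhds]
    intro w hw
    have hw : T w ⊆ {i} := hw
    filter_upwards [h.nhd w] with v hv
    exact hv.trans hw
  have hop2 : IsOpen {w | i ∉ T w} := (h.closed i).isOpen_compl
  obtain ⟨w1, hw1, hw1b⟩ := ((h.pure x i hi).and_eventually (ball_mem_nhds x hr)).exists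
  obtain ⟨w2, hw2, hw2b⟩ := ((h.pure x j hj).and_eventually (ball_mem_nhds x hr)).exists
  have hw1x : w1 ≠ x := by
    rintro rfl
    rw [hw1] at hj
    exact hji hj
  have hw2x : w2 ≠ x := by
    rintro rfl
    rw [hw2] at hi
    exact hji hi.symm
  obtain ⟨w, -, hwa, hwb⟩ := punctured x r {w | T w ⊆ {i}} {w | i ∉ T w} hop hop2
    (fun w hw => by
      by_cases hwi : i ∈ T w
      · exact Or.inl (hball w hw.1 hw.2 hwi)
      · exact Or.inr hwi)
    ⟨w1, ⟨hw1b, hw1x⟩, hw1.subset⟩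
    ⟨w2, ⟨hw2b, hw2x⟩, by
      show i ∉ T w2
      rw [hw2]
      exact fun hmem => hji hmem.symm⟩
  obtain ⟨m, hm⟩ := h.ne w
  have hwa : T w ⊆ {i} := hwa
  have : m = i := hwa hm
  exact hwb (this ▸ hm)

/-- helper223's frame gives `Harm` -/
theorem Hml.harmReg (h : Irr U T) {W : Set ℂ} (hl : Hml T f W) {z : ℂ} (hz : z ∈ W)
    (h4 : 4 ≤ (T z).ncard) : Harm T z (f z) := by
  obtain ⟨y, hy, hyf⟩ := hl.h2 z hz h4
  refine ⟨hl.four z hz h4, hl.two z hz h4, hl.fsub z hz h4, hl.h1 z hz h4, ?_⟩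
  obtain ⟨q, -, hq, hq2, hq3, hq4, -⟩ := h.arc_of_sub hy (hyf.le.trans (hl.fsub z hz h4)) univ_mem
  have hqf : T q = f z := by
    rw [hyf] at hq3
    exact Set.eq_of_subset_of_ncard_le hq3 (by rw [hl.two z hz h4]; exact hq4) (Set.toFinite _)
  exact ⟨q, hq, hq2.mono fun q' hq' => hq'.trans hqf⟩

/-- the frame -/
structure Reg (U : Fin 6 → Set ℂ) (T : ℂ → Set (Fin 6)) (f : ℂ → Set (Fin 6)) (Z : Set ℂ) (c : ℂ)
    (R : ℝ) : Prop where
  irr : Irr U T
  zs : Zs T Z c R
  hml : Hml T f (ball c (R + 1))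
  free : ∀ z ∈ Z, ∀ z' ∈ Z, dist z z' ≠ 1

namespace Reg

variable (G : Reg U T f Z c R)

include G

theorem harm {z : ℂ} (hz : z ∈ Z) : Harm T z (f z) :=
  G.hml.harmReg G.irr (G.zs.sub hz) (G.zs.four z hz)

/-- the palette of a point of `Z` is locally constant on `Z`, and so is `f` -/
theorem nhdZ {z : ℂ} (hz : z ∈ Z) : ∀ᶠ w in 𝓝 z, w ∈ Z → T w = T z ∧ f w = f z := by
  filter_upwards [(G.harm hz).nhd G.irr] with w hw hwZ
  exact hw _ (G.harm hwZ)

theorem le3 {x : ℂ} (hx : dist x c ≤ R) (hxZ : x ∉ Z) : (T x).ncard ≤ 3 := by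
  by_contra hcon
  exact hxZ (G.zs.mem x (mem_closedBall.2 hx) (by omega))

theorem near_notMem {x : ℂ} (hx : x ∉ Z) : ∀ᶠ y in 𝓝 x, y ∉ Z :=
  G.zs.compact.isClosed.isOpen_compl.mem_nhds hx

/-- **exceptional points, open part** -/
theorem exc {x : ℂ} (hx : dist x c ≤ R) {i j : Fin 6} (hE : x ∈ Ex T Z f i j) :
    ∀ᶠ y in 𝓝 x, i ∈ T y → j ∈ T y → T y = T x ∧ y ∈ Ex T Z f i j := by
  rcases hE with ⟨hxZ, hf⟩ | ⟨hxZ, hi, hj, z, hz, hzx, hC⟩
  · obtain ⟨p, hp, hpf⟩ := G.hml.h2 x (G.zs.sub hxZ) (G.zs.four x hxZ)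
    filter_upwards [G.irr.no_layer hp, G.zs.opn x hxZ, G.nhdZ hxZ] with y h1 h2 h3 hi hj
    have h4 : T p ⊆ T y := by
      rw [hpf, hf]
      exact insert_subset hi (singleton_subset_iff.2 hj)
    have hyZ := h2 (h1 h4)
    obtain ⟨h5, h6⟩ := h3 hyZ
    exact ⟨h5, Or.inl ⟨hyZ, h6.trans hf⟩⟩
  · have hxz : dist x z = 1 := by rw [dist_comm]; exact hzx
    filter_upwards [(G.harm hz).cd3 G.irr hxz (G.le3 hx hxZ)
      (by rw [hC]; exact insert_subset hi (singleton_subset_iff.2 hj)), G.near_notMem hxZ]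
      with y h1 h2 hi' hj'
    obtain ⟨h3, h4⟩ := h1 (by rw [hC]; exact insert_subset hi' (singleton_subset_iff.2 hj'))
    exact ⟨h4, Or.inr ⟨h2, hi', hj', z, hz, by rw [dist_comm]; exact h3, hC⟩⟩

/-- the exceptional set is closed -/
theorem ex_closed {x : ℂ} {i j : Fin 6} (hf : ∃ᶠ y in 𝓝 x, y ∈ Ex T Z f i j) :
    x ∈ Ex T Z f i j := by
  have hf' : (∃ᶠ y in 𝓝 x, y ∈ Z ∧ f y = {i, j}) ∨ (∃ᶠ y in 𝓝 x, y ∉ Z ∧ i ∈ T y ∧ j ∈ T y ∧
      ∃ z ∈ Z, dist z y = 1 ∧ T z \ f z = {i, j}) := frequently_or_distrib.1 hf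
  rcases hf' with hf' | hf'
  · have hxZ : x ∈ Z := by
      by_contra hxZ
      obtain ⟨y, h1, h2⟩ := (hf'.and_eventually (G.near_notMem hxZ)).exists
      exact h2 h1.1
    obtain ⟨y, h1, h2⟩ := (hf'.and_eventually (G.nhdZ hxZ)).exists
    exact Or.inl ⟨hxZ, (h2 h1.1).2.symm.trans h1.2⟩
  · obtain ⟨y, hy, hyP⟩ := exists_seq_forall_of_frequently hf'
    choose hyZ hi hj z hzZ hzy hC using hyP
    obtain ⟨z0, hz0, φ, hφ, hlim⟩ := G.zs.compact.tendsto_subseq hzZ
    have hylim : Tendsto (y ∘ φ) atTop (𝓝 x) := hy.comp hφ.tendsto_atTop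
    have hd : dist z0 x = 1 := by
      have h1 : Tendsto (fun n => dist ((z ∘ φ) n) ((y ∘ φ) n)) atTop (𝓝 (dist z0 x)) :=
        hlim.dist hylim
      have h2 : (fun n => dist ((z ∘ φ) n) ((y ∘ φ) n)) = fun _ => 1 := by
        funext n; exact hzy (φ n)
      rw [h2] at h1
      exact tendsto_nhds_unique h1 tendsto_const_nhds
    obtain ⟨n, hn⟩ := (hlim.eventually (G.nhdZ hz0)).exists
    obtain ⟨h5, h6⟩ := hn (hzZ (φ n))
    have h5 : T (z (φ n)) = T z0 := h5
    have h6 : f (z (φ n)) = f z0 := h6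
    have hiv : i ∈ T x := (G.irr.closed i).mem_of_tendsto hy (Eventually.of_forall hi)
    have hjv : j ∈ T x := (G.irr.closed j).mem_of_tendsto hy (Eventually.of_forall hj)
    refine Or.inr ⟨fun hxZ => G.free z0 hz0 x hxZ hd, hiv, hjv, z0, hz0, hd, ?_⟩
    rw [← hC (φ n), h5, h6]

/-- **exceptional points, closed part** -/
theorem exo {x : ℂ} {i j : Fin 6} (hE : x ∉ Ex T Z f i j) :
    ∀ᶠ y in 𝓝 x, y ∉ Ex T Z f i j := by
  by_contra hcon
  exact hE (G.ex_closed (not_eventually.1 hcon |>.mono fun y hy => not_not.1 hy))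

/-- an exceptional pair has two colours of the palette -/
theorem ex_ne {x : ℂ} {i j : Fin 6} (hE : x ∈ Ex T Z f i j) : i ≠ j := by
  rintro rfl
  rcases hE with ⟨hxZ, hf⟩ | ⟨-, -, -, z, hz, -, hC⟩
  · have := (G.harm hxZ).cardA
    rw [hf] at this
    simp at this
  · have := (G.harm hz).cardC
    rw [hC] at this
    simp at this

theorem ex_mem {x : ℂ} {i j : Fin 6} (hE : x ∈ Ex T Z f i j) : i ∈ T x ∧ j ∈ T x := by
  rcases hE with ⟨hxZ, hf⟩ | ⟨-, hi, hj, -⟩
  · have := (G.harm hxZ).sub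
    rw [hf] at this
    exact ⟨this (mem_insert _ _), this (mem_insert_of_mem _ rfl)⟩
  · exact ⟨hi, hj⟩

/-- no exceptional pair at a point with two colours -/
theorem ex_three {x : ℂ} (hx : dist x c ≤ R) {i j : Fin 6} (hE : x ∈ Ex T Z f i j) :
    3 ≤ (T x).ncard := by
  by_cases hxZ : x ∈ Z
  · have := G.zs.four x hxZ
    omega
  · have h3 := G.le3 hx hxZ
    rcases hE with ⟨h, -⟩ | ⟨-, hi, hj, z, hz, hzx, hC⟩
    · exact absurd h hxZ
    · obtain ⟨e, he, hT⟩ := (G.harm hz).third (by rw [dist_comm]; exact hzx) h3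
        (by rw [hC]; exact insert_subset hi (singleton_subset_iff.2 hj))
      rw [hT, Set.ncard_insert_of_notMem (fun hmem => he hmem.1) (Set.toFinite _),
        (G.harm hz).cardC]

/-- at most one exceptional pair at a point with three colours -/
theorem one_pair {x : ℂ} (hx : dist x c ≤ R) (hxZ : x ∉ Z) {i j k : Fin 6} (hjk : j ≠ k)
    (hT : T x ⊆ {i, j, k}) (hij : x ∈ Ex T Z f i j) (hik : x ∈ Ex T Z f i k) : False := by
  obtain ⟨hi, hj⟩ := G.ex_mem hij
  rcases hij with ⟨h, -⟩ | ⟨-, -, -, z, hz, hzx, hC⟩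
  · exact hxZ h
  rcases hik with ⟨h, -⟩ | ⟨-, -, hk, z', hz', hzx', hC'⟩
  · exact hxZ h
  have hxz : dist x z = 1 := by rw [dist_comm]; exact hzx
  have hxz' : dist x z' = 1 := by rw [dist_comm]; exact hzx'
  have hne : z ≠ z' := by
    rintro rfl
    have h1 : j ∈ ({i, k} : Set (Fin 6)) := by
      rw [← hC', hC]; exact mem_insert_of_mem _ rfl
    have h2 : i ≠ j := by
      rintro rfl
      have := (G.harm hz).cardC
      rw [hC] at this
      simp at this
    rcases h1 with h1 | h1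
    · exact h2 h1.symm
    · exact hjk h1
  have h3 := G.le3 hx hxZ
  have e1 := (G.harm hz).cd3 G.irr hxz h3
    (by rw [hC]; exact insert_subset hi (singleton_subset_iff.2 hj))
  have e2 := (G.harm hz').cd3 G.irr hxz' h3
    (by rw [hC']; exact insert_subset hi (singleton_subset_iff.2 hk))
  have key : T x ⊆ {i} := by
    refine isolated G.irr hi ?_
    filter_upwards [e1, e2, G.irr.nhd x, two_circles hne hxz hxz'] with w h1 h2 h4 h5 hwx hiw
    intro m hm
    by_contra hmi
    have hmi : m ≠ i := hmi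
    refine hwx (h5 ?_ ?_)
    · -- `T w = T x`
      have h6 : T w = T x := by
        rcases hT (h4 hm) with h7 | h7 | h7
        · exact absurd h7 hmi
        · exact (h1 (by
            rw [hC, ← h7]
            exact insert_subset hiw (singleton_subset_iff.2 hm))).2
        · have h7 : m = k := h7
          exact (h2 (by
            rw [hC', ← h7]
            exact insert_subset hiw (singleton_subset_iff.2 hm))).2
      exact (h1 (by
        rw [hC, h6]
        exact insert_subset hi (singleton_subset_iff.2 hj))).1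
    · have h6 : T w = T x := by
        rcases hT (h4 hm) with h7 | h7 | h7
        · exact absurd h7 hmi
        · exact (h1 (by
            rw [hC, ← h7]
            exact insert_subset hiw (singleton_subset_iff.2 hm))).2
        · have h7 : m = k := h7
          exact (h2 (by
            rw [hC', ← h7]
            exact insert_subset hiw (singleton_subset_iff.2 hm))).2
      exact (h2 (by
        rw [hC', h6]
        exact insert_subset hi (singleton_subset_iff.2 hk))).1
  have h7 : j = i := key hj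
  have h8 : k = i := key hk
  exact hjk (h7.trans h8.symm)

/-- faces at a point of `Z` -/
theorem face_four {x : ℂ} (hx : x ∈ Z) {a b c' d : Fin 6} (hab : a ≠ b) (hac : a ≠ c')
    (had : a ≠ d) (hbc : b ≠ c') (hbd : b ≠ d) (hcd : c' ≠ d) (hT : T x = {a, b, c', d})
    (hf : f x = {a, b}) : FaceT T x {a, c', d} := by
  refine ⟨?_, ?_, ?_⟩
  · rw [Set.ncard_eq_three]
    exact ⟨a, c', d, hac, had, hcd, rfl⟩
  · rw [hT]
    intro m hm
    simp only [mem_insert_iff, mem_singleton_iff] at hm ⊢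
    tauto
  · intro y hy hsub
    have h1 := (G.harm hx).h1 y hy (hsub.trans (by
      rw [hT]
      intro m hm
      simp only [mem_insert_iff, mem_singleton_iff] at hm ⊢
      tauto))
    have h2 : b ∈ ({a, c', d} : Set (Fin 6)) := hsub (h1 (by rw [hf]; simp))
    simp only [mem_insert_iff, mem_singleton_iff] at h2
    rcases h2 with h2 | h2 | h2
    · exact hab h2.symm
    · exact hbc h2
    · exact hbd h2

/-- **the list of palettes** -/
theorem palE {x : ℂ} (hx : dist x c ≤ R) :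
    (T x).ncard ≤ 2 ∨ (FaceT T x (T x) ∧ ∀ i ∈ T x, ∀ j ∈ T x, x ∉ Ex T Z f i j) ∨
    (∃ i j k, i ≠ j ∧ i ≠ k ∧ j ≠ k ∧ T x = {i, j, k} ∧ x ∈ Ex T Z f i j ∧ x ∉ Ex T Z f i k ∧
      x ∉ Ex T Z f j k) ∨
    (∃ a b c' d, a ≠ b ∧ a ≠ c' ∧ a ≠ d ∧ b ≠ c' ∧ b ≠ d ∧ c' ≠ d ∧ T x = {a, b, c', d} ∧
      x ∈ Ex T Z f a b ∧
      (FaceT T x {a, c', d} ∧ ∀ i ∈ ({a, c', d} : Set (Fin 6)), ∀ j ∈ ({a, c', d} : Set (Fin 6)),
        x ∉ Ex T Z f i j) ∧
      (FaceT T x {b, c', d} ∧ ∀ i ∈ ({b, c', d} : Set (Fin 6)), ∀ j ∈ ({b, c', d} : Set (Fin 6)),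
        x ∉ Ex T Z f i j)) := by
  by_cases hxZ : x ∈ Z
  · right; right; right
    have hH := G.harm hxZ
    obtain ⟨a, b, hab, hfab⟩ := Set.ncard_eq_two.1 hH.cardA
    obtain ⟨c', d, hcd, hCcd⟩ := Set.ncard_eq_two.1 hH.cardC
    have hc : c' ∈ T x ∧ c' ∉ f x := by
      have : c' ∈ T x \ f x := by rw [hCcd]; simp
      exact this
    have hd : d ∈ T x ∧ d ∉ f x := by
      have : d ∈ T x \ f x := by rw [hCcd]; simp
      exact this
    rw [hfab] at hc hd
    simp only [mem_insert_iff, mem_singleton_iff, not_or] at hc hd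
    have hT : T x = {a, b, c', d} := by
      have h1 : T x = f x ∪ (T x \ f x) := (union_sdiff_cancel hH.sub).symm
      have h2 : T x = {a, b} ∪ {c', d} := by
        rw [hCcd, hfab] at h1
        exact h1
      rw [h2]
      ext m
      simp only [mem_union, mem_insert_iff, mem_singleton_iff]
      tauto
    have hT' : T x = {b, a, c', d} := by
      rw [hT]
      ext m
      simp only [mem_insert_iff, mem_singleton_iff]
      tauto
    have hno : ∀ e g : Fin 6, ({e, g} : Set (Fin 6)) ≠ {a, b} → x ∉ Ex T Z f e g := by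
      intro e g heg hE
      rcases hE with ⟨-, h1⟩ | ⟨h1, -⟩
      · exact heg (h1.symm.trans hfab)
      · exact h1 hxZ
    refine ⟨a, b, c', d, hab, fun h => hc.2.1 h.symm, fun h => hd.2.1 h.symm,
      fun h => hc.2.2 h.symm, fun h => hd.2.2 h.symm, hcd, hT, Or.inl ⟨hxZ, hfab⟩, ⟨?_, ?_⟩, ⟨?_, ?_⟩⟩
    · exact G.face_four hxZ hab (fun h => hc.2.1 h.symm) (fun h => hd.2.1 h.symm)
        (fun h => hc.2.2 h.symm) (fun h => hd.2.2 h.symm) hcd hT hfab
    · intro e he g hg
      refine hno e g fun h => ?_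
      have hb : b ∈ ({e, g} : Set (Fin 6)) := by rw [h]; simp
      simp only [mem_insert_iff, mem_singleton_iff] at he hg hb
      have hbn : ∀ m, (m = a ∨ m = c' ∨ m = d) → b ≠ m := by
        rintro m (rfl | rfl | rfl)
        · exact hab.symm
        · exact fun h => hc.2.2 h.symm
        · exact fun h => hd.2.2 h.symm
      rcases hb with hb | hb
      · exact hbn e he hb
      · exact hbn g hg hb
    · exact G.face_four hxZ hab.symm (fun h => hc.2.2 h.symm) (fun h => hd.2.2 h.symm)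
        (fun h => hc.2.1 h.symm) (fun h => hd.2.1 h.symm) hcd hT' (by rw [hfab, Set.pair_comm])
    · intro e he g hg
      refine hno e g fun h => ?_
      have ha : a ∈ ({e, g} : Set (Fin 6)) := by rw [h]; simp
      simp only [mem_insert_iff, mem_singleton_iff] at he hg ha
      have han : ∀ m, (m = b ∨ m = c' ∨ m = d) → a ≠ m := by
        rintro m (rfl | rfl | rfl)
        · exact hab
        · exact fun h => hc.2.1 h.symm
        · exact fun h => hd.2.1 h.symm
      rcases ha with ha | ha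
      · exact han e he ha
      · exact han g hg ha
  · have h3 := G.le3 hx hxZ
    by_cases h2 : (T x).ncard ≤ 2
    · exact Or.inl h2
    have h3' : (T x).ncard = 3 := by omega
    by_cases hno : ∀ i ∈ T x, ∀ j ∈ T x, x ∉ Ex T Z f i j
    · exact Or.inr (Or.inl ⟨⟨h3', Subset.rfl, fun y hy => G.irr.not_sub hy h3⟩, hno⟩)
    right; right; left
    push Not at hno
    obtain ⟨i, hi, j, hj, hE⟩ := hno
    have hij := G.ex_ne hE
    -- the third colour
    have hk : ∃ k ∈ T x, k ≠ i ∧ k ≠ j := by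
      by_contra hcon
      push Not at hcon
      have h5 : T x ⊆ {i, j} := by
        intro m hm
        by_cases hmi : m = i
        · exact Or.inl hmi
        · exact Or.inr (hcon m hm hmi)
      have h6 := Set.ncard_le_ncard h5 (Set.toFinite _)
      rw [Set.ncard_pair hij] at h6
      omega
    obtain ⟨k, hk, hki, hkj⟩ := hk
    have hT : T x = {i, j, k} := by
      refine (Set.eq_of_subset_of_ncard_le ?_ ?_ (Set.toFinite _)).symm
      · exact insert_subset hi (insert_subset hj (singleton_subset_iff.2 hk))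
      · rw [h3', Set.ncard_eq_three.2 ⟨i, j, k, hij, hki.symm, hkj.symm, rfl⟩]
    refine ⟨i, j, k, hij, hki.symm, hkj.symm, hT, hE, fun hE' => ?_, fun hE' => ?_⟩
    · exact G.one_pair hx hxZ hkj.symm hT.subset hE hE'
    · refine G.one_pair hx hxZ (i := j) (j := i) (k := k) hki.symm (hT.subset.trans ?_)
        (by rw [Ex_symm]; exact hE) hE'
      intro m hm
      simp only [mem_insert_iff, mem_singleton_iff] at hm ⊢
      tauto

end Reg

end Vale.Agent.P032.Carr
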