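import Vale.Agent.P032.S5.H585.R2
import Vale.Agent.P032.S5.H830.RingX
import Vale.Agent.P032.S5.H180.Base

/-!
# P032: the ring hypothesis of `cech_endX` at the final face

`Reg.cbaseF` : a face without points of `Z` on its circle is a clean base of helper180.

`Reg.ring` : the hypothesis `ring` of helper830's `cech_endX`.
-/

open Set Filter Topology Metric

noncomputable section

namespace Vale.Agent.P032.Carr

open Vale.Agent.P032.S5 Vale.Agent.P032.Six

variable {U : Fin 6 → Set ℂ} {T : ℂ → Set (Fin 6)} {Z : Set ℂ} {f : ℂ → Set (Fin 6)}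
  {c : ℂ} {R : ℝ}

namespace Reg

/-- a face without points of `Z` on its circle is a clean base -/
theorem cbaseF (G : Reg U T f Z c R) {v : ℂ} {S : Set (Fin 6)} (hv : dist v c ≤ R - 1)
    (hS : S5.Face T v S) (hSv : ∀ z ∈ Z, dist z v ≠ 1) : S5.H180.CBase T v S := by
  refine ⟨S5.H180.face_iff.1 hS, fun y hy => ?_, ?_⟩
  · refine G.le3 ?_ fun h => hSv y h hy
    have := dist_triangle y v c
    linarith
  by_cases hvZ : v ∈ Z
  · right
    have hH := G.harm hvZ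
    obtain ⟨p, hp, hev⟩ := hH.arc
    have hpf : T p = f v := hev.self_of_nhdsWithin hp
    obtain ⟨b, hb, hbS⟩ := Set.not_subset.1 (hS.2.2 p hp)
    rw [hpf] at hb
    obtain ⟨a, ha, hab⟩ : ∃ a ∈ f v, a ≠ b :=
      Set.exists_ne_of_one_lt_ncard (by rw [hH.cardA]; norm_num) b
    have hT : insert b S = T v := by
      refine Set.eq_of_subset_of_ncard_le (insert_subset (hH.sub hb) hS.2.1) ?_ (Set.toFinite _)
      rw [Set.ncard_insert_of_notMem hbS (Set.toFinite _), hS.1, hH.card]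
    have haS : a ∈ S := by
      have h1 := hH.sub ha
      rw [← hT] at h1
      rcases h1 with h1 | h1
      · exact absurd h1 hab
      · exact h1
    exact ⟨a, b, haS, hbS, hT.symm, fun y hy hyv =>
      ⟨hH.h1 y hy hyv ha, hH.h1 y hy hyv hb⟩⟩
  · left
    refine G.le3 ?_ hvZ
    linarith

/-- **the final ring**: the hypothesis `ring` of `cech_endX` -/
theorem ring (G : Reg U T f Z c R) {v : ℂ} {S : Set (Fin 6)} (hv : dist v c ≤ R - 1)
    (hS : S5.Face T v S) (hSv : ∀ z ∈ Z, dist z v ≠ 1)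
    (hcomp : ∀ y, dist y v = 1 → ¬ S5.Face T y Sᶜ) {d e : Fin 6} (hd : d ∉ S) (he : e ∉ S)
    (hde : d ≠ e) :
    ∀ δ > 0, ∀ N : ℕ, ∃ n ≥ N, ∃ l : ℕ → Fin 6, (∀ k, l (k + n) = l k) ∧
      (∀ k : ℕ, l k ∈ T (v + cis (2 * Real.pi * k / n))) ∧
      (∀ k, l k ∉ S) ∧
      (∀ k, l k ≠ l (k + 1) → ∃ w ∈ closedBall v 1, dist w (v + cis (2 * Real.pi * k / n)) < δ ∧
        l k ∈ T w ∧ l (k + 1) ∈ T w ∧ w ∉ Ex T Z f (l k) (l (k + 1))) ∧
      ∑ k ∈ Finset.range n, (if ({l k, l (k + 1)} : Finset (Fin 6)) = {d, e} then 1 else 0) =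
        (1 : ZMod 2) := by
  refine EndX.ring_of G.irr.nhd hS (fun N => ?_) fun y hy i j _ hi hj _ _ hE => ?_
  · obtain ⟨N₀, hN₀⟩ := (G.cbaseF hv hS hSv).ring_cech G.irr hd he hde
    exact ⟨max N N₀, le_max_left _ _, fun l h1 h2 h3 => hN₀ _ (le_max_right _ _) l h1 h2 h3⟩
  · obtain ⟨t, h1, h2, h3⟩ := G.R2 hv hS hSv hy (hcomp y hy) hi hj hE
    exact ⟨t, h1, h2, h3.mono fun y' hy' ha hb => (hy' ha hb).2⟩

end Reg

end Vale.Agent.P032.Carr
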