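import Vale.Agent.P032.S5.H585.R2S
import Vale.Agent.P032.S5.H57.RingZ
import Vale.Agent.P032.S5.H11.Mesh2

/-!
# P032: the ring of `cech_endH` at a face with harmless points on the circle

`ring_ofH` : the ring of helper830's `cech_endH` (labels at nearby points) from the odd rings of the
apex cover and the local form of the palette at the exceptional points outside `Z'`.
-/

open Set Filter Topology Metric

noncomputable section

namespace Vale.Agent.P032.Carr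

open Vale.Agent.P032.S5 Vale.Agent.P032.Six

variable {T : ℂ → Set (Fin 6)} {Z Z' : Set ℂ} {f : ℂ → Set (Fin 6)} {δ₀ : ℝ} {v : ℂ}
  {S : Set (Fin 6)}

/-- points of the compact set `Z'` near the circle are near points of `Z'` on the circle -/
theorem near_circle (hZ' : IsCompact Z') (v : ℂ) {ε : ℝ} (hε : 0 < ε) :
    ∃ η > 0, ∀ z ∈ Z', (∃ y, dist y v = 1 ∧ dist y z < η) →
      ∃ z0 ∈ Z', dist z0 v = 1 ∧ dist z z0 < ε := by
  obtain ⟨η, hη, h⟩ := S5.H57.evt_scale (C := Z') (W := thickening ε (Z' ∩ sphere v 1))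
    (g := fun z => |dist z v - 1|) hZ' isOpen_thickening (by fun_prop) (fun z hz hz0 => by
      have h1 : |dist z v - 1| = 0 := le_antisymm hz0 (abs_nonneg _)
      have h2 : dist z v = 1 := by
        have := abs_eq_zero.1 h1
        linarith
      exact self_subset_thickening hε _ ⟨hz, mem_sphere.2 h2⟩)
  refine ⟨η, hη, fun z hz ⟨y, hy, hyz⟩ => ?_⟩
  have h1 : |dist z v - 1| < η := by
    have h2 := dist_triangle z y v
    have h3 := dist_triangle y z v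
    rw [dist_comm z y] at h2
    rw [abs_lt]
    constructor <;> linarith
  obtain ⟨z0, hz0, hd⟩ := mem_thickening_iff.1 (h z hz h1)
  exact ⟨z0, hz0.1, hz0.2, hd⟩

/-- the ring, distances to the points of the polar ring -/
theorem ring_ofW (H : Hm T Z f δ₀) (hZ' : IsCompact Z') (hZZ : Z' ⊆ Z) (hv : S5.Face T v S)
    {d e : Fin 6} (hde : d ≠ e)
    (unp : ∀ z ∈ Z', dist z v = 1 → ∃ i, i ∈ T z ∧ i ∉ f z ∧ i ∉ S)
    (R1 : ∀ᶠ δ in 𝓝[>] (0 : ℝ), ∀ N : ℕ, ∃ n ≥ N, ∀ l : ℕ → Fin 6, l n = l 0 →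
      (∀ k ≤ n, l k ∈ apx T Z' δ (hp T f S) (v + cis (2 * Real.pi * k / n)) ∧ l k ∉ S) →
        ∑ k ∈ Finset.range n, eps (l k) (l (k + 1)) {d, e} = 1)
    (R2 : ∀ y, dist y v = 1 → y ∉ Z' → ∀ i j, i ≠ j → i ∉ S → j ∉ S → i ∈ T y → j ∈ T y →
      y ∈ Ex T Z f i j →
      ∃ t ∈ T y, t ∉ S ∧ ∀ᶠ y' in 𝓝 y, dist y' v = 1 → y' ≠ y → ∀ m ∈ T y', m ∈ S ∨ m = t) :
    ∀ δ > 0, ∀ N : ℕ, ∃ n ≥ N, ∃ l : ℕ → Fin 6, ∃ u : ℕ → ℂ, (∀ k, l (k + n) = l k) ∧
      (∀ k, u (k + n) = u k) ∧ (∀ k, u k ∈ closedBall v 1) ∧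
      (∀ k : ℕ, dist (u k) (v + cis (2 * Real.pi * k / n)) < δ) ∧ (∀ k, l k ∈ T (u k)) ∧
      (∀ k, l k ∉ S) ∧
      (∀ k, l k ≠ l (k + 1) → ∃ w ∈ closedBall v 1, dist w (v + cis (2 * Real.pi * k / n)) < δ ∧
        l k ∈ T w ∧ l (k + 1) ∈ T w ∧ w ∉ Ex T Z f (l k) (l (k + 1))) ∧
      ∑ k ∈ Finset.range n, (if ({l k, l (k + 1)} : Finset (Fin 6)) = {d, e} then 1 else 0) =
        (1 : ZMod 2) := by
  classical
  intro Δ hΔ N
  have hδ₀ := H.pos
  set ε := min (Δ / 8) (δ₀ / 8) with hεdef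
  have hε : 0 < ε := lt_min (by positivity) (by positivity)
  have hεΔ : ε ≤ Δ / 8 := min_le_left _ _
  have hεδ : ε ≤ δ₀ / 8 := min_le_right _ _
  obtain ⟨η₁, hη₁, hnear⟩ := near_circle hZ' v hε
  -- the scale
  obtain ⟨ρ, hR1, hρI⟩ := (R1.and (Ioo_mem_nhdsGT (lt_min hε hη₁))).exists
  obtain ⟨hρ, hρm⟩ := hρI
  have hρε : ρ < ε := hρm.trans_le (min_le_left _ _)
  have hρη : ρ < η₁ := hρm.trans_le (min_le_right _ _)
  -- the nearby points of `Z'`
  have hAz : ∀ y, ∃ z0, (dist y v = 1 ∧ ∃ z ∈ Z', dist y z ≤ ρ) → z0 ∈ Z' ∧ dist z0 v = 1 ∧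
      dist y z0 < ρ + ε ∧ ∀ z ∈ Z', dist y z ≤ ρ → hp T f S z = hp T f S z0 := by
    intro y
    by_cases hy : dist y v = 1 ∧ ∃ z ∈ Z', dist y z ≤ ρ
    · obtain ⟨hy1, z, hz, hyz⟩ := hy
      obtain ⟨z0, hz0, hz01, hd⟩ := hnear z hz ⟨y, hy1, hyz.trans_lt hρη⟩
      have hyz0 : dist y z0 < ρ + ε := by
        have := dist_triangle y z z0
        linarith
      refine ⟨z0, fun _ => ⟨hz0, hz01, hyz0, fun z' hz' hyz' => ?_⟩⟩
      refine H.hp_const (hZZ hz') (hZZ hz0) ?_ S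
      have := dist_triangle_left z' z0 y
      linarith
    · exact ⟨0, fun h => absurd h hy⟩
  choose ζ hζ using hAz
  -- labels outside
  have hr : ∀ y, ∃ c, dist y v = 1 → c ∈ T y ∧ c ∉ S ∧
      ((∃ i j, i ≠ j ∧ i ∉ S ∧ j ∉ S ∧ i ∈ T y ∧ j ∈ T y ∧ y ∈ Ex T Z f i j) → y ∉ Z' →
        ∀ᶠ y' in 𝓝 y, dist y' v = 1 → y' ≠ y → ∀ m ∈ T y', m ∈ S ∨ m = c) := by
    intro y
    by_cases hy : dist y v = 1
    · by_cases hb : (∃ i j, i ≠ j ∧ i ∉ S ∧ j ∉ S ∧ i ∈ T y ∧ j ∈ T y ∧ y ∈ Ex T Z f i j) ∧ y ∉ Z'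
      · obtain ⟨⟨i, j, hij, hi, hj, hiy, hjy, he⟩, hyZ⟩ := hb
        obtain ⟨t, ht, htS, hev⟩ := R2 y hy hyZ i j hij hi hj hiy hjy he
        exact ⟨t, fun _ => ⟨ht, htS, fun _ _ => hev⟩⟩
      · obtain ⟨c, hc, hcS⟩ := Set.not_subset.1 (hv.2.2 y hy)
        exact ⟨c, fun _ => ⟨hc, hcS, fun h1 h2 => absurd ⟨h1, h2⟩ hb⟩⟩
    · exact ⟨0, fun h => absurd h hy⟩
  choose rl hrl using hr
  -- the compact set and the radii
  let C : Set ℂ := sphere v 1 ∩ {y | ∀ z ∈ Z', ρ ≤ dist y z}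
  have hCc : IsCompact C := (isCompact_sphere v 1).inter_right (by
    have : {y : ℂ | ∀ z ∈ Z', ρ ≤ dist y z} = ⋂ z ∈ Z', {y | ρ ≤ dist y z} := by
      ext y; simp
    rw [this]
    exact isClosed_biInter fun z _ => isClosed_le continuous_const
      (continuous_id.dist continuous_const))
  have hCZ : ∀ y ∈ C, y ∉ Z' := fun y hy hyZ => by
    have := hy.2 y hyZ
    rw [dist_self] at this
    linarith
  have hrad : ∀ y : C, ∃ r > 0, r ≤ Δ ∧ ∀ P : ℂ, dist P (y : ℂ) < r → T P ⊆ T (y : ℂ) ∧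
      ((∃ i j, i ≠ j ∧ i ∉ S ∧ j ∉ S ∧ i ∈ T (y : ℂ) ∧ j ∈ T (y : ℂ) ∧ (y : ℂ) ∈ Ex T Z f i j) →
        dist P v = 1 → P ≠ y → ∀ m ∈ T P, m ∈ S ∨ m = rl y) := by
    rintro ⟨y, hy⟩
    have h1 := (hrl y hy.1).2.2
    by_cases hb : ∃ i j, i ≠ j ∧ i ∉ S ∧ j ∉ S ∧ i ∈ T y ∧ j ∈ T y ∧ y ∈ Ex T Z f i j
    · obtain ⟨r, hr, h3⟩ := Metric.eventually_nhds_iff.1 ((H.usc y).and (h1 hb (hCZ y hy)))
      exact ⟨min r Δ, lt_min hr hΔ, min_le_right _ _, fun P hP =>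
        ⟨(h3 (hP.trans_le (min_le_left _ _))).1, fun _ => (h3 (hP.trans_le (min_le_left _ _))).2⟩⟩
    · obtain ⟨r, hr, h3⟩ := Metric.eventually_nhds_iff.1 (H.usc y)
      exact ⟨min r Δ, lt_min hr hΔ, min_le_right _ _, fun P hP =>
        ⟨h3 (hP.trans_le (min_le_left _ _)), fun h => absurd h hb⟩⟩
  choose r hr hrΔ hloc using hrad
  obtain ⟨η, hη, hB⟩ := lebesgue_number_lemma_of_metric hCc
    (c := fun x : C => ball (x : ℂ) (r x)) (fun x => isOpen_ball)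
    (fun x hx => mem_iUnion.2 ⟨⟨x, hx⟩, mem_ball_self (hr _)⟩)
  obtain ⟨M, hM⟩ := exists_nat_gt (2 * Real.pi / min η ε)
  obtain ⟨n, hn, hodd⟩ := hR1 (max N (max M 1))
  have hηε : 0 < min η ε := lt_min hη hε
  have hn0 : 0 < n := lt_of_lt_of_le Nat.one_pos
    ((le_max_right M 1).trans ((le_max_right N _).trans hn))
  have hn0' : (0 : ℝ) < n := by exact_mod_cast hn0
  have hMn : (M : ℝ) ≤ n := by
    exact_mod_cast (le_max_left M 1).trans ((le_max_right N _).trans hn)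
  have hstep : 2 * Real.pi / n < min η ε := by
    rw [div_lt_iff₀ hηε] at hM
    rw [div_lt_iff₀ hn0']
    nlinarith
  let P : ℕ → ℂ := fun k => v + cis (2 * Real.pi * k / n)
  have hP1 : ∀ k, dist (P k) v = 1 := by
    intro k
    simp only [P]
    rw [dist_eq_norm, add_sub_cancel_left]
    exact End.norm_cis _
  have hPpt : ∀ k, P k = End.pt v 1 n 1 k := by
    intro k
    simp [P, End.pt]
  have hPP : ∀ k, dist (P (k + 1)) (P k) < min η ε := by
    intro k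
    rw [hPpt, hPpt, dist_comm]
    exact (End.dist_pt_angular v Nat.one_pos hn0 le_rfl k).trans_lt hstep
  have hPper : ∀ k, P (k + n) = P k := by
    intro k
    rw [hPpt, hPpt, End.pt_period v hn0]
  let A : ℕ → Prop := fun k => ∃ z ∈ Z', dist (P k) z ≤ ρ
  let l : ℕ → Fin 6 := fun k => if A k then hp T f S (ζ (P k)) else rl (P k)
  let u : ℕ → ℂ := fun k => if A k then ζ (P k) else P k
  have hA : ∀ k, A k → ζ (P k) ∈ Z' ∧ dist (ζ (P k)) v = 1 ∧ dist (P k) (ζ (P k)) < ρ + ε ∧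
      ∀ z ∈ Z', dist (P k) z ≤ ρ → hp T f S z = hp T f S (ζ (P k)) :=
    fun k hk => hζ (P k) ⟨hP1 k, hk⟩
  have hlA : ∀ k, A k → l k = hp T f S (ζ (P k)) := fun k hk => by simp only [l, if_pos hk]
  have hlB : ∀ k, ¬ A k → l k = rl (P k) := fun k hk => by simp only [l, if_neg hk]
  have huA : ∀ k, A k → u k = ζ (P k) := fun k hk => by simp only [u, if_pos hk]
  have huB : ∀ k, ¬ A k → u k = P k := fun k hk => by simp only [u, if_neg hk]
  have hapex : ∀ k, A k → l k ∈ T (ζ (P k)) ∧ l k ∉ f (ζ (P k)) ∧ l k ∉ S := by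
    intro k hk
    obtain ⟨h1, h2, -, -⟩ := hA k hk
    rw [hlA k hk]
    obtain ⟨h3, h4⟩ := H.apex (hZZ h1) S
    exact ⟨h3, h4, pick_avoid (unp _ h1 h2)⟩
  have hlT : ∀ k, ¬ A k → l k ∈ T (P k) := fun k hk => by
    rw [hlB k hk]; exact (hrl (P k) (hP1 k)).1
  have hlS : ∀ k, l k ∉ S := fun k => by
    by_cases hk : A k
    · exact (hapex k hk).2.2
    · rw [hlB k hk]; exact (hrl (P k) (hP1 k)).2.1
  have hAper : ∀ k, A (k + n) ↔ A k := fun k => by simp only [A, hPper]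
  have hper : ∀ k, l (k + n) = l k := by
    intro k
    simp only [l, hAper, hPper]
  have huper : ∀ k, u (k + n) = u k := by
    intro k
    simp only [u, hAper, hPper]
  have hudist : ∀ k, dist (u k) (P k) < Δ := by
    intro k
    by_cases hk : A k
    · rw [huA k hk, dist_comm]
      have := (hA k hk).2.2.1
      linarith
    · rw [huB k hk, dist_self]; exact hΔ
  -- the step between a point near `Z'` and another point
  have hmix : ∀ k k', dist (P k') (P k) < ε → A k → ¬ A k' → l k ≠ l k' →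
      l k ∈ T (ζ (P k)) ∧ l k' ∈ T (ζ (P k)) ∧ ζ (P k) ∉ Ex T Z f (l k) (l k') ∧
      dist (P k') (ζ (P k)) < Δ := by
    intro k k' hkk hk hk' hne
    obtain ⟨h1, h2, h3, -⟩ := hA k hk
    obtain ⟨h4, h5, h6⟩ := hapex k hk
    have hd : dist (P k') (ζ (P k)) < 3 * ε := by
      have := dist_triangle (P k') (P k) (ζ (P k))
      linarith
    refine ⟨h4, ?_, ?_, by linarith⟩
    · exact H.sub _ (hZZ h1) (P k') (by linarith) (hlT k' hk')
    · rintro (⟨-, he⟩ | ⟨he, -⟩)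
      · exact h5 (by rw [he]; simp)
      · exact he (hZZ h1)
  refine ⟨n, (le_max_left _ _).trans hn, l, u, hper, huper, fun k => ?_, hudist, fun k => ?_, hlS,
    fun k hk => ?_, ?_⟩
  · by_cases hk : A k
    · rw [huA k hk]; exact mem_closedBall.2 (hA k hk).2.1.le
    · rw [huB k hk]; exact mem_closedBall.2 (hP1 k).le
  · by_cases hk : A k
    · rw [huA k hk]; exact (hapex k hk).1
    · rw [huB k hk]; exact hlT k hk
  · -- steps
    have hs1 : dist (P (k + 1)) (P k) < ε := (hPP k).trans_le (min_le_right _ _)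
    by_cases hk1 : A k
    · by_cases hk2 : A (k + 1)
      · exfalso
        apply hk
        rw [hlA k hk1, hlA (k + 1) hk2]
        obtain ⟨h1, -, h3, -⟩ := hA k hk1
        obtain ⟨h1', -, h3', -⟩ := hA (k + 1) hk2
        refine H.hp_const (hZZ h1) (hZZ h1') ?_ S
        have t1 := dist_triangle_left (ζ (P k)) (ζ (P (k + 1))) (P k)
        have t2 := dist_triangle_left (P k) (ζ (P (k + 1))) (P (k + 1))
        linarith
      · obtain ⟨h1, h2, h3, -⟩ := hmix k (k + 1) hs1 hk1 hk2 hk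
        refine ⟨ζ (P k), mem_closedBall.2 (hA k hk1).2.1.le, ?_, h1, h2, h3⟩
        rw [dist_comm]
        have := (hA k hk1).2.2.1
        show dist (P k) _ < Δ
        linarith
    · by_cases hk2 : A (k + 1)
      · obtain ⟨h1, h2, h3, h4⟩ := hmix (k + 1) k (by rw [dist_comm]; exact hs1) hk2 hk1 hk.symm
        refine ⟨ζ (P (k + 1)), mem_closedBall.2 (hA _ hk2).2.1.le, ?_, h2, h1, ?_⟩
        · rw [dist_comm]; exact h4
        · rw [Ex_symm]; exact h3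
      · have hCk : ∀ m, ¬ A m → P m ∈ C := fun m hm => by
          refine ⟨mem_sphere.2 (hP1 m), fun z hz => ?_⟩
          by_contra hcon
          exact hm ⟨z, hz, (not_le.1 hcon).le⟩
        obtain ⟨y, hy⟩ := hB (P k) (hCk k hk1)
        have h1 : dist (P k) (y : ℂ) < r y := hy (mem_ball_self hη)
        have h2 : dist (P (k + 1)) (y : ℂ) < r y :=
          hy (mem_ball.2 ((hPP k).trans_le (min_le_left _ _)))
        have hy1 : dist (y : ℂ) v = 1 := y.2.1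
        obtain ⟨a1, a2⟩ := hloc y (P k) h1
        obtain ⟨b1, b2⟩ := hloc y (P (k + 1)) h2
        refine ⟨y, mem_closedBall.2 hy1.le, ?_, a1 (hlT k hk1), b1 (hlT (k + 1) hk2),
          fun he => ?_⟩
        · rw [dist_comm]
          exact h1.trans_le (hrΔ y)
        · have hb : ∃ i j, i ≠ j ∧ i ∉ S ∧ j ∉ S ∧ i ∈ T (y : ℂ) ∧ j ∈ T (y : ℂ) ∧
              (y : ℂ) ∈ Ex T Z f i j :=
            ⟨l k, l (k + 1), hk, hlS k, hlS (k + 1), a1 (hlT k hk1), b1 (hlT (k + 1) hk2), he⟩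
          have hA1 : l k = rl y := by
            by_cases hc : P k = y
            · rw [hlB k hk1, hc]
            · exact (a2 hb (hP1 k) hc (l k) (hlT k hk1)).resolve_left (hlS k)
          have hB1 : l (k + 1) = rl y := by
            by_cases hc : P (k + 1) = y
            · rw [hlB _ hk2, hc]
            · exact (b2 hb (hP1 (k + 1)) hc (l (k + 1)) (hlT (k + 1) hk2)).resolve_left
                (hlS (k + 1))
          exact hk (hA1.trans hB1.symm)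
  · -- the sum
    have h1 := hodd l (by have := hper 0; rwa [zero_add] at this) fun k _ => ⟨by
      by_cases hk : A k
      · obtain ⟨z, hz, hd⟩ := id hk
        refine Or.inr ⟨z, hz, hd, ?_⟩
        rw [hlA k hk]
        exact (hA k hk).2.2.2 z hz hd
      · refine Or.inl ⟨hlT k hk, fun z hz => ?_⟩
        by_contra hcon
        exact hk ⟨z, hz, (not_le.1 hcon).le⟩, hlS k⟩
    refine Eq.trans (Finset.sum_congr rfl fun k _ => ?_) h1
    unfold eps
    by_cases hk : l k = l (k + 1)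
    · rw [if_neg, if_neg]
      · exact fun h5 => h5.1 hk
      · rw [hk]
        intro h5
        have h6 : d ∈ ({l (k + 1), l (k + 1)} : Finset (Fin 6)) := by rw [h5]; simp
        have h7 : e ∈ ({l (k + 1), l (k + 1)} : Finset (Fin 6)) := by rw [h5]; simp
        simp only [Finset.mem_insert, Finset.mem_singleton, or_self] at h6 h7
        exact hde (h6.trans h7.symm)
    · by_cases h5 : ({l k, l (k + 1)} : Finset (Fin 6)) = {d, e}
      · rw [if_pos h5, if_pos ⟨hk, h5.symm⟩]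
      · rw [if_neg h5, if_neg fun h6 => h5 h6.2.symm]

/-- **the ring of `cech_endH`** -/
theorem ring_ofH (H : Hm T Z f δ₀) (hZ' : IsCompact Z') (hZZ : Z' ⊆ Z) (hv : S5.Face T v S)
    {d e : Fin 6} (hde : d ≠ e)
    (unp : ∀ z ∈ Z', dist z v = 1 → ∃ i, i ∈ T z ∧ i ∉ f z ∧ i ∉ S)
    (R1 : ∀ᶠ δ in 𝓝[>] (0 : ℝ), ∀ N : ℕ, ∃ n ≥ N, ∀ l : ℕ → Fin 6, l n = l 0 →
      (∀ k ≤ n, l k ∈ apx T Z' δ (hp T f S) (v + cis (2 * Real.pi * k / n)) ∧ l k ∉ S) →
        ∑ k ∈ Finset.range n, eps (l k) (l (k + 1)) {d, e} = 1)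
    (R2 : ∀ y, dist y v = 1 → y ∉ Z' → ∀ i j, i ≠ j → i ∉ S → j ∉ S → i ∈ T y → j ∈ T y →
      y ∈ Ex T Z f i j →
      ∃ t ∈ T y, t ∉ S ∧ ∀ᶠ y' in 𝓝 y, dist y' v = 1 → y' ≠ y → ∀ m ∈ T y', m ∈ S ∨ m = t) :
    ∀ δ > 0, ∀ N : ℕ, ∃ n ≥ N, ∃ (l : ℕ → Fin 6) (P : ℕ → ℂ), (∀ k, l (k + n) = l k) ∧
      (∀ k, P (k + n) = P k) ∧
      (∀ k : ℕ, P k ∈ closedBall v 1 ∧ dist (P k) (v + cis (2 * Real.pi * k / n)) < δ ∧
        l k ∈ T (P k)) ∧
      (∀ k, l k ∉ S) ∧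
      (∀ k, l k ≠ l (k + 1) → ∃ w ∈ closedBall v 1, dist w (P k) < δ ∧
        l k ∈ T w ∧ l (k + 1) ∈ T w ∧ w ∉ Ex T Z f (l k) (l (k + 1))) ∧
      ∑ k ∈ Finset.range n, (if ({l k, l (k + 1)} : Finset (Fin 6)) = {d, e} then 1 else 0) =
        (1 : ZMod 2) := by
  intro δ hδ N
  obtain ⟨n, hn, l, u, h1, h2, h3, h4, h5, h6, h7, h8⟩ :=
    ring_ofW H hZ' hZZ hv hde unp R1 R2 (δ / 2) (by positivity) N
  refine ⟨n, hn, l, u, h1, h2, fun k => ⟨h3 k, (h4 k).trans (by linarith), h5 k⟩, h6,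
    fun k hk => ?_, h8⟩
  obtain ⟨w, q1, q2, q3, q4, q5⟩ := h7 k hk
  refine ⟨w, q1, ?_, q3, q4, q5⟩
  have := h4 k
  have := dist_triangle_right w (u k) (v + cis (2 * Real.pi * k / n))
  linarith

end Vale.Agent.P032.Carr
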